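import Mathlib.Data.List.Basic
import Mathlib.Data.List.Infix
import Mathlib.Tactic

/-!
Row 287: the list-based greedy hierarchical algorithm.

A *path* is a list of pairs `(s, o)`: a string `s` (top) and the recorded overlap `o` with the next
string of the path (the overlap of the last entry is a dummy).
A *state* at level `l` is a list of (open) paths.
-/

set_option autoImplicit false

namespace Crest.Agent.R287

variable {α : Type} [DecidableEq α]

/-- a path: strings with the overlap to the next one -/
abbrev Path (α : Type) := List (List α × ℕ)

/-- the `k`-suffix of a string -/
def suf (k : ℕ) (x : List α) : List α := x.drop (x.length - k)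

/-- `x` and `y` both have length at least `k` and the `k`-suffix of `x` is the `k`-prefix of `y` -/
def glue (k : ℕ) (x y : List α) : Bool :=
  decide (k ≤ x.length) && decide (k ≤ y.length) && decide (suf k x = y.take k)

/-- common suffix of length at least `k` -/
def comSuf (k : ℕ) (x y : List α) : Bool :=
  decide (k ≤ x.length) && decide (k ≤ y.length) && decide (suf k x = suf k y)

/-- common prefix of length at least `k` -/
def comPre (k : ℕ) (x y : List α) : Bool :=
  decide (k ≤ x.length) && decide (k ≤ y.length) && decide (x.take k = y.take k)

/-- first string of a path (`[]` for the empty path) -/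
def fst (T : Path α) : List α := match T with
  | [] => []
  | a :: _ => a.1

/-- last entry of a path -/
def lst (T : Path α) : List α × ℕ := match T with
  | [] => ([], 0)
  | [a] => a
  | _ :: b :: l => lst (b :: l)

/-- replace the overlap recorded at the last entry -/
def setLast (k : ℕ) (T : Path α) : Path α := match T with
  | [] => []
  | [a] => [(a.1, k)]
  | a :: b :: l => a :: setLast k (b :: l)

/-- rotate by one -/
def rot (T : Path α) : Path α := match T with
  | [] => []
  | a :: l => l ++ [a]

/-- the first `n` rotations of `T` -/
def rots (n : ℕ) (T : Path α) : List (Path α) := match n with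
  | 0 => []
  | n + 1 => T :: rots n (rot T)

/-- all cuts of a list, including the two trivial ones -/
def cuts (T : Path α) : List (Path α × Path α) := match T with
  | [] => [([], [])]
  | a :: l => ([], a :: l) :: (cuts l).map (fun p => (a :: p.1, p.2))

/-- all ways to pick one element, with the remaining list -/
def picks {β : Type} (L : List β) : List (β × List β) := match L with
  | [] => []
  | a :: l => (a, l) :: (picks l).map (fun p => (p.1, a :: p.2))

/-- is the path closed at level `l`? -/
def closedAt (l : ℕ) (T : Path α) : Bool := glue l (lst T).1 (fst T)

/-- the overlap at a cut `(Q1, Q2)` (the level at the two open ends) -/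
def ovAt (l : ℕ) (Q1 Q2 : Path α) : ℕ :=
  if Q1.isEmpty || Q2.isEmpty then l else (lst Q1).2

/-- insertion of the rotation `R` (cyclic path, last overlap = overlap from last to first) into the
cut `(Q1, Q2)` of `Q` at level `l` -/
def insertAt (l : ℕ) (R : Path α) (c : Path α × Path α) : Option (Path α) :=
  if !c.1.isEmpty && comSuf (max (lst R).2 (ovAt l c.1 c.2)) (lst R).1 (lst c.1).1 then
    some (setLast (lst R).2 c.1 ++ (setLast (ovAt l c.1 c.2) R ++ c.2))
  else if !c.2.isEmpty && comPre (max (lst R).2 (ovAt l c.1 c.2)) (fst R) (fst c.2) then
    some (c.1 ++ (R ++ c.2))
  else none

/-- try to merge path `T` into path `Q` at level `l` -/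
def tryMerge (l : ℕ) (T Q : Path α) : Option (Path α) :=
  if glue l (lst T).1 (fst Q) = true then some (setLast l T ++ Q)
  else if closedAt l T = true then
    (rots T.length (setLast l T)).findSome? (fun R => (cuts Q).findSome? (insertAt l R))
  else none

/-- one merge at level `l`, if there is one -/
def mergeOne (l : ℕ) (P : List (Path α)) : Option (List (Path α)) :=
  (picks P).findSome? fun tr => (picks tr.2).findSome? fun qr =>
    (tryMerge l tr.1 qr.1).map (fun N => N :: qr.2)

/-- one step of the algorithm; the state is `(level, paths)` -/
def step (S : List (List α)) (st : ℕ × List (Path α)) : ℕ × List (Path α) :=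
  match mergeOne st.1 st.2 with
  | some P => (st.1, P)
  | none => match st.1 with
    | 0 => (0, st.2)
    | l + 1 => (l, (S.filter (fun s => decide (s.length = l + 1))).map (fun s => [(s, 0)]) ++ st.2)

/-- remove duplicates and strings that are factors of other strings -/
def clean (S : List (List α)) : List (List α) :=
  S.dedup.filter (fun s => S.all (fun t => decide (s = t) || !decide (s <:+: t)))

def maxLen (S : List (List α)) : ℕ := (S.map List.length).foldr max 0

/-- the string spelled by a path -/
def render (T : Path α) : List α := match T with
  | [] => []
  | [a] => a.1
  | a :: b :: l => a.1.take (a.1.length - a.2) ++ render (b :: l)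

/-- run with enough fuel -/
def run (S : List (List α)) : ℕ × List (Path α) :=
  (step S)^[S.length + maxLen S + 1] (maxLen S, [])

/-- the algorithm -/
def alg (S : List (List α)) : List α := ((run (clean S)).2.map render).flatten

end Crest.Agent.R287
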