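import Crest.Agent.R287.Alg

/-!
Row 287: correctness of the list-based algorithm (every input string is a factor of the output) and
the bookkeeping of lengths.
-/

set_option autoImplicit false
set_option linter.unusedSectionVars false

namespace Crest.Agent.R287

variable {α : Type} [DecidableEq α]

/-- strings of a path -/
def tops (T : Path α) : List (List α) := T.map Prod.fst

/-- a nonempty path with correct overlaps -/
def Valid : Path α → Prop
  | [] => False
  | [_] => True
  | a :: b :: l => glue a.2 a.1 b.1 = true ∧ Valid (b :: l)

/-- total length of the strings -/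
def sumLen (T : Path α) : ℕ := (T.map fun a => a.1.length).sum

/-- sum of all recorded overlaps, including the last -/
def sumAll (T : Path α) : ℕ := (T.map fun a => a.2).sum

/-- sum of the recorded overlaps except the last -/
def sumOv : Path α → ℕ
  | [] => 0
  | [_] => 0
  | a :: b :: l => a.2 + sumOv (b :: l)

theorem glue_iff {k : ℕ} {x y : List α} :
    glue k x y = true ↔ k ≤ x.length ∧ k ≤ y.length ∧ suf k x = y.take k := by
  simp [glue, and_assoc]

theorem comSuf_iff {k : ℕ} {x y : List α} :
    comSuf k x y = true ↔ k ≤ x.length ∧ k ≤ y.length ∧ suf k x = suf k y := by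
  simp [comSuf, and_assoc]

theorem comPre_iff {k : ℕ} {x y : List α} :
    comPre k x y = true ↔ k ≤ x.length ∧ k ≤ y.length ∧ x.take k = y.take k := by
  simp [comPre, and_assoc]

theorem suf_suf {j k : ℕ} (h : j ≤ k) (x : List α) (hk : k ≤ x.length) :
    suf j (suf k x) = suf j x := by
  unfold suf
  rw [List.drop_drop]
  congr 1
  simp
  omega

theorem suf_length {k : ℕ} {x : List α} (hk : k ≤ x.length) : (suf k x).length = k := by
  simp [suf]; omega

theorem comSuf_mono {j k : ℕ} (h : j ≤ k) {x y : List α} (H : comSuf k x y = true) :
    comSuf j x y = true := by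
  rw [comSuf_iff] at H ⊢
  obtain ⟨h1, h2, h3⟩ := H
  refine ⟨h.trans h1, h.trans h2, ?_⟩
  rw [← suf_suf h x h1, ← suf_suf h y h2, h3]

theorem comPre_mono {j k : ℕ} (h : j ≤ k) {x y : List α} (H : comPre k x y = true) :
    comPre j x y = true := by
  rw [comPre_iff] at H ⊢
  obtain ⟨h1, h2, h3⟩ := H
  refine ⟨h.trans h1, h.trans h2, ?_⟩
  have := congrArg (List.take j) h3
  simpa [List.take_take, h] using this

/-! ### basic list facts about paths -/

theorem lst_append_singleton (T : Path α) (a : List α × ℕ) : lst (T ++ [a]) = a := by
  induction T with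
  | nil => rfl
  | cons b l ih =>
    cases l with
    | nil => rfl
    | cons c l => simpa [lst] using ih

theorem eq_append_lst {T : Path α} (h : T ≠ []) : ∃ T', T = T' ++ [lst T] := by
  induction T with
  | nil => exact absurd rfl h
  | cons b l ih =>
    cases l with
    | nil => exact ⟨[], rfl⟩
    | cons c l =>
      obtain ⟨T', hT'⟩ := ih (by simp)
      refine ⟨b :: T', ?_⟩
      have : lst (b :: c :: l) = lst (c :: l) := rfl
      rw [this, List.cons_append, ← hT']

theorem setLast_append (k : ℕ) (T : Path α) (a : List α × ℕ) :
    setLast k (T ++ [a]) = T ++ [(a.1, k)] := by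
  induction T with
  | nil => rfl
  | cons b l ih =>
    cases l with
    | nil => rfl
    | cons c l =>
      have : setLast k ((b :: c :: l) ++ [a]) = b :: setLast k ((c :: l) ++ [a]) := rfl
      rw [this, ih]; rfl

theorem tops_setLast (k : ℕ) (T : Path α) : tops (setLast k T) = tops T := by
  by_cases h : T = []
  · subst h; rfl
  · obtain ⟨T', hT'⟩ := eq_append_lst h
    rw [hT', setLast_append]; simp [tops]

theorem sumLen_setLast (k : ℕ) (T : Path α) : sumLen (setLast k T) = sumLen T := by
  by_cases h : T = []
  · subst h; rfl
  · obtain ⟨T', hT'⟩ := eq_append_lst h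
    rw [hT', setLast_append]; simp [sumLen]

theorem setLast_ne_nil {k : ℕ} {T : Path α} (h : T ≠ []) : setLast k T ≠ [] := by
  obtain ⟨T', hT'⟩ := eq_append_lst h
  rw [hT', setLast_append]; simp

theorem lst_setLast {k : ℕ} {T : Path α} (h : T ≠ []) : lst (setLast k T) = ((lst T).1, k) := by
  obtain ⟨T', hT'⟩ := eq_append_lst h
  rw [hT', setLast_append, lst_append_singleton, lst_append_singleton]

theorem fst_setLast (k : ℕ) (T : Path α) : fst (setLast k T) = fst T := by
  cases T with
  | nil => rfl
  | cons a l => cases l <;> rfl

theorem setLast_lst {T : Path α} (h : T ≠ []) : setLast (lst T).2 T = T := by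
  obtain ⟨T', hT'⟩ := eq_append_lst h
  conv_rhs => rw [hT']
  conv_lhs => rw [hT']
  rw [setLast_append, lst_append_singleton]

theorem lst_append {T Q : Path α} (h : Q ≠ []) : lst (T ++ Q) = lst Q := by
  obtain ⟨Q', hQ'⟩ := eq_append_lst h
  conv_lhs => rw [hQ', ← List.append_assoc, lst_append_singleton]

theorem fst_append {T Q : Path α} (h : T ≠ []) : fst (T ++ Q) = fst T := by
  cases T with
  | nil => exact absurd rfl h
  | cons a l => rfl

theorem Valid.ne_nil {T : Path α} (h : Valid T) : T ≠ [] := by
  rintro rfl; exact h

/-- validity of a concatenation -/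
theorem valid_append {T Q : Path α} (hT : T ≠ []) (hQ : Q ≠ []) :
    Valid (T ++ Q) ↔ Valid T ∧ glue (lst T).2 (lst T).1 (fst Q) = true ∧ Valid Q := by
  induction T with
  | nil => exact absurd rfl hT
  | cons a l ih =>
    cases l with
    | nil =>
      cases Q with
      | nil => exact absurd rfl hQ
      | cons b Q => simp [Valid, lst, fst]
    | cons c l =>
      have := ih (by simp)
      simp only [List.cons_append] at this ⊢
      simp only [Valid, lst]
      rw [this]
      tauto

theorem valid_setLast {k : ℕ} {T : Path α} (h : Valid T) : Valid (setLast k T) := by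
  obtain ⟨T', hT'⟩ := eq_append_lst h.ne_nil
  by_cases h0 : T' = []
  · subst h0
    rw [hT']; simp [setLast, Valid]
  · rw [hT'] at h ⊢
    rw [setLast_append]
    rw [valid_append h0 (by simp)] at h ⊢
    simpa [fst, Valid] using h

theorem sumOv_append {T Q : Path α} (hT : T ≠ []) (hQ : Q ≠ []) :
    sumOv (T ++ Q) = sumAll T + sumOv Q := by
  induction T with
  | nil => exact absurd rfl hT
  | cons a l ih =>
    cases l with
    | nil =>
      cases Q with
      | nil => exact absurd rfl hQ
      | cons b Q => simp [sumOv, sumAll]
    | cons c l =>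
      have := ih (by simp)
      simp only [List.cons_append] at this ⊢
      simp only [sumOv, this]
      simp [sumAll]; omega

theorem sumAll_eq {T : Path α} (h : T ≠ []) : sumAll T = sumOv T + (lst T).2 := by
  induction T with
  | nil => exact absurd rfl h
  | cons a l ih =>
    cases l with
    | nil => simp [sumAll, sumOv, lst]
    | cons c l =>
      have := ih (by simp)
      simp only [sumOv, lst]
      have h2 : sumAll (a :: c :: l) = a.2 + sumAll (c :: l) := by simp [sumAll]
      omega

theorem sumOv_setLast (k : ℕ) (T : Path α) : sumOv (setLast k T) = sumOv T := by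
  by_cases h : T = []
  · subst h; rfl
  · obtain ⟨T', hT'⟩ := eq_append_lst h
    by_cases h0 : T' = []
    · subst h0
      rw [hT']; simp [setLast, sumOv]
    · rw [hT', setLast_append, sumOv_append h0 (by simp), sumOv_append h0 (by simp)]
      simp [sumOv]

theorem sumAll_setLast {k : ℕ} {T : Path α} (h : T ≠ []) :
    sumAll (setLast k T) = sumOv T + k := by
  rw [sumAll_eq (setLast_ne_nil h), sumOv_setLast, lst_setLast h]

/-! ### cyclic paths -/

/-- a closed path: the last overlap is the one from the last string to the first -/
def Cyc (T : Path α) : Prop := Valid T ∧ glue (lst T).2 (lst T).1 (fst T) = true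

theorem cyc_rot {T : Path α} (h : Cyc T) : Cyc (rot T) := by
  obtain ⟨h1, h2⟩ := h
  cases T with
  | nil => exact absurd rfl h1.ne_nil
  | cons a l =>
    cases l with
    | nil => exact ⟨h1, h2⟩
    | cons b l =>
      simp only [Valid] at h1
      refine ⟨?_, ?_⟩
      · change Valid ((b :: l) ++ [a])
        rw [valid_append (by simp) (by simp)]
        exact ⟨h1.2, by simpa [lst, fst] using h2, trivial⟩
      · change glue (lst ((b :: l) ++ [a])).2 (lst ((b :: l) ++ [a])).1 (fst ((b :: l) ++ [a])) = true
        rw [lst_append_singleton]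
        exact h1.1

theorem perm_rot (T : Path α) : (rot T).Perm T := by
  cases T with
  | nil => exact List.Perm.refl _
  | cons a l => exact List.perm_append_singleton a l

theorem mem_rots {n : ℕ} {T R : Path α} (h : R ∈ rots n T) :
    R.Perm T ∧ (Cyc T → Cyc R) := by
  induction n generalizing T with
  | zero => simp [rots] at h
  | succ n ih =>
    simp only [rots, List.mem_cons] at h
    rcases h with rfl | h
    · exact ⟨List.Perm.refl _, id⟩
    · obtain ⟨h1, h2⟩ := ih h
      exact ⟨h1.trans (perm_rot T), fun hc => h2 (cyc_rot hc)⟩

theorem mem_cuts {T : Path α} {c : Path α × Path α} (h : c ∈ cuts T) : c.1 ++ c.2 = T := by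
  induction T generalizing c with
  | nil =>
    simp only [cuts, List.mem_singleton] at h
    subst h; rfl
  | cons a l ih =>
    simp only [cuts, List.mem_cons, List.mem_map] at h
    rcases h with rfl | ⟨p, hp, rfl⟩
    · rfl
    · simp [ih hp]

theorem perm_sumLen {T Q : Path α} (h : T.Perm Q) : sumLen T = sumLen Q := (h.map _).sum_eq
theorem perm_sumAll {T Q : Path α} (h : T.Perm Q) : sumAll T = sumAll Q := (h.map _).sum_eq
theorem perm_tops {T Q : Path α} (h : T.Perm Q) : (tops T).Perm (tops Q) := h.map _

theorem sumLen_append (T Q : Path α) : sumLen (T ++ Q) = sumLen T + sumLen Q := by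
  simp [sumLen]

theorem tops_append (T Q : Path α) : tops (T ++ Q) = tops T ++ tops Q := by
  simp [tops]

theorem glue_of_comSuf {j k : ℕ} {x y z : List α} (hj : j ≤ k) (h : comSuf k x y = true)
    (g : glue j x z = true) : glue j y z = true := by
  have h' := comSuf_iff.1 (comSuf_mono hj h)
  rw [glue_iff] at g ⊢
  exact ⟨h'.2.1, g.2.1, by rw [← h'.2.2, g.2.2]⟩

theorem comSuf_comm {k : ℕ} {x y : List α} (h : comSuf k x y = true) : comSuf k y x = true := by
  rw [comSuf_iff] at h ⊢
  exact ⟨h.2.1, h.1, h.2.2.symm⟩

theorem glue_of_comPre {j k : ℕ} {x y z : List α} (hj : j ≤ k) (h : comPre k x y = true)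
    (g : glue j z x = true) : glue j z y = true := by
  have h' := comPre_iff.1 (comPre_mono hj h)
  rw [glue_iff] at g ⊢
  exact ⟨g.1, h'.2.1, by rw [← h'.2.2, g.2.2]⟩

theorem comPre_comm {k : ℕ} {x y : List α} (h : comPre k x y = true) : comPre k y x = true := by
  rw [comPre_iff] at h ⊢
  exact ⟨h.2.1, h.1, h.2.2.symm⟩

/-- what a merge does -/
structure Merged (l : ℕ) (T Q N : Path α) : Prop where
  valid : Valid N
  tops : (tops N).Perm (tops T ++ tops Q)
  len : sumLen N = sumLen T + sumLen Q
  ov : sumOv N = sumOv T + sumOv Q + l

theorem insertAt_spec {l : ℕ} {R Q N : Path α} {c : Path α × Path α}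
    (hR : Cyc R) (hQ : Valid Q) (hc : c.1 ++ c.2 = Q) (h : insertAt l R c = some N) :
    Valid N ∧ (tops N).Perm (tops R ++ tops Q) ∧ sumLen N = sumLen R + sumLen Q ∧
      sumOv N = sumAll R + sumOv Q := by
  obtain ⟨Q1, Q2⟩ := c
  have hR0 : R ≠ [] := hR.1.ne_nil
  simp only at hc
  subst hc
  unfold insertAt at h
  simp only [Bool.and_eq_true, Bool.not_eq_true', List.isEmpty_eq_false_iff] at h
  split_ifs at h with h1 h2
  · -- suffix case
    obtain ⟨hQ1, hs⟩ := h1
    injection h with h
    subst h
    cases Q2 with
    | nil =>
      have hob : ovAt l Q1 ([] : Path α) = l := by simp [ovAt]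
      rw [hob] at hs ⊢
      simp only [List.append_nil] at hQ ⊢
      refine ⟨?_, ?_, ?_, ?_⟩
      · rw [valid_append (setLast_ne_nil hQ1) (setLast_ne_nil hR0)]
        refine ⟨valid_setLast hQ, ?_, valid_setLast hR.1⟩
        rw [lst_setLast hQ1, fst_setLast]
        exact glue_of_comSuf (le_max_left _ _) hs hR.2
      · rw [tops_append, tops_setLast, tops_setLast]
        exact List.perm_append_comm
      · rw [sumLen_append, sumLen_setLast, sumLen_setLast]; omega
      · rw [sumOv_append (setLast_ne_nil hQ1) (setLast_ne_nil hR0), sumAll_setLast hQ1,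
          sumOv_setLast, sumAll_eq hR0]; omega
    | cons q Q2 =>
      have hob : ovAt l Q1 (q :: Q2 : Path α) = (lst Q1).2 := by
        simp [ovAt, hQ1]
      rw [hob] at hs ⊢
      rw [valid_append hQ1 (by simp)] at hQ
      have hne : setLast (lst Q1).2 R ++ q :: Q2 ≠ [] := by simp
      refine ⟨?_, ?_, ?_, ?_⟩
      · rw [valid_append (setLast_ne_nil hQ1) hne]
        refine ⟨valid_setLast hQ.1, ?_, ?_⟩
        · rw [lst_setLast hQ1, fst_append (setLast_ne_nil hR0), fst_setLast]
          exact glue_of_comSuf (le_max_left _ _) hs hR.2
        · rw [valid_append (setLast_ne_nil hR0) (by simp)]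
          refine ⟨valid_setLast hR.1, ?_, hQ.2.2⟩
          rw [lst_setLast hR0]
          exact glue_of_comSuf (le_max_right _ _) (comSuf_comm hs) hQ.2.1
      · rw [tops_append, tops_append, tops_setLast, tops_setLast, tops_append, ← List.append_assoc,
          ← List.append_assoc]
        exact List.Perm.append_right _ List.perm_append_comm
      · simp only [sumLen_append, sumLen_setLast]; omega
      · rw [sumOv_append (setLast_ne_nil hQ1) hne, sumOv_append (setLast_ne_nil hR0) (by simp),
          sumOv_append hQ1 (by simp), sumAll_setLast hQ1, sumAll_setLast hR0, sumAll_eq hR0,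
          sumAll_eq hQ1]; omega
  · -- prefix case
    obtain ⟨hQ2, hs⟩ := h2
    injection h with h
    subst h
    cases Q1 with
    | nil =>
      simp only [List.nil_append] at hQ ⊢
      refine ⟨?_, ?_, ?_, ?_⟩
      · rw [valid_append hR0 hQ2]
        exact ⟨hR.1, glue_of_comPre (le_max_left _ _) hs hR.2, hQ⟩
      · rw [tops_append]
      · rw [sumLen_append]
      · rw [sumOv_append hR0 hQ2]
    | cons a Q1 =>
      have hob : ovAt l (a :: Q1 : Path α) Q2 = (lst (a :: Q1)).2 := by
        simp [ovAt, hQ2]
      rw [hob] at hs
      rw [valid_append (by simp) hQ2] at hQ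
      have hne : R ++ Q2 ≠ [] := by simp [hR0]
      refine ⟨?_, ?_, ?_, ?_⟩
      · rw [valid_append (by simp) hne]
        refine ⟨hQ.1, ?_, ?_⟩
        · rw [fst_append hR0]
          exact glue_of_comPre (le_max_right _ _) (comPre_comm hs) hQ.2.1
        · rw [valid_append hR0 hQ2]
          exact ⟨hR.1, glue_of_comPre (le_max_left _ _) hs hR.2, hQ.2.2⟩
      · rw [tops_append, tops_append, tops_append, ← List.append_assoc, ← List.append_assoc]
        exact List.Perm.append_right _ List.perm_append_comm
      · simp only [sumLen_append]; omega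
      · rw [sumOv_append (by simp) hne, sumOv_append hR0 hQ2, sumOv_append (by simp) hQ2]; omega

theorem tryMerge_spec {l : ℕ} {T Q N : Path α} (hT : Valid T) (hQ : Valid Q)
    (h : tryMerge l T Q = some N) : Merged l T Q N := by
  have hT0 := hT.ne_nil
  unfold tryMerge at h
  split_ifs at h with h1 h2
  · injection h with h
    subst h
    refine ⟨?_, ?_, ?_, ?_⟩
    · rw [valid_append (setLast_ne_nil hT0) hQ.ne_nil]
      exact ⟨valid_setLast hT, by rw [lst_setLast hT0]; exact h1, hQ⟩
    · rw [tops_append, tops_setLast]
    · rw [sumLen_append, sumLen_setLast]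
    · rw [sumOv_append (setLast_ne_nil hT0) hQ.ne_nil, sumAll_setLast hT0]; omega
  · obtain ⟨R, hR, h3⟩ := List.exists_of_findSome?_eq_some h
    obtain ⟨c, hc, h4⟩ := List.exists_of_findSome?_eq_some h3
    have hcyc : Cyc (setLast l T) := by
      refine ⟨valid_setLast hT, ?_⟩
      rw [lst_setLast hT0, fst_setLast]
      exact h2
    obtain ⟨hperm, hcR⟩ := mem_rots hR
    obtain ⟨s1, s2, s3, s4⟩ := insertAt_spec (hcR hcyc) hQ (mem_cuts hc) h4
    refine ⟨s1, ?_, ?_, ?_⟩
    · refine s2.trans (List.Perm.append_right _ ?_)
      have := perm_tops hperm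
      rwa [tops_setLast] at this
    · rw [s3, perm_sumLen hperm, sumLen_setLast]
    · rw [s4, perm_sumAll hperm, sumAll_setLast hT0]; omega

theorem mem_picks {β : Type} {L : List β} {p : β × List β} (h : p ∈ picks L) :
    L.Perm (p.1 :: p.2) := by
  induction L generalizing p with
  | nil => simp [picks] at h
  | cons a l ih =>
    simp only [picks, List.mem_cons, List.mem_map] at h
    rcases h with rfl | ⟨q, hq, rfl⟩
    · exact List.Perm.refl _
    · exact ((ih hq).cons a).trans (List.Perm.swap _ _ _)

theorem mergeOne_spec {l : ℕ} {P P' : List (Path α)} (h : mergeOne l P = some P') :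
    ∃ T Q N rest, P.Perm (T :: Q :: rest) ∧ P' = N :: rest ∧ tryMerge l T Q = some N := by
  unfold mergeOne at h
  obtain ⟨tr, htr, h1⟩ := List.exists_of_findSome?_eq_some h
  obtain ⟨qr, hqr, h2⟩ := List.exists_of_findSome?_eq_some h1
  simp only [Option.map_eq_some_iff] at h2
  obtain ⟨N, hN, rfl⟩ := h2
  exact ⟨tr.1, qr.1, N, qr.2, (mem_picks htr).trans ((mem_picks hqr).cons _), rfl, hN⟩

/-! ### rendering -/

theorem render_length_add {T : Path α} (h : Valid T) :
    (render T).length + sumOv T = sumLen T := by
  induction T with
  | nil => exact absurd h (by simp [Valid])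
  | cons a l ih =>
    cases l with
    | nil => simp [render, sumOv, sumLen]
    | cons b l =>
      simp only [Valid] at h
      have h1 := ih h.2
      have h2 := (glue_iff.1 h.1).1
      simp only [render, sumOv, List.length_append, List.length_take]
      have h3 : sumLen (a :: b :: l) = a.1.length + sumLen (b :: l) := by simp [sumLen]
      omega

/-- the first string is a prefix of the rendered string -/
theorem fst_prefix_render {T : Path α} (h : Valid T) : fst T <+: render T := by
  induction T with
  | nil => exact absurd h (by simp [Valid])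
  | cons a l ih =>
    cases l with
    | nil => simp [render, fst]
    | cons b l =>
      simp only [Valid] at h
      obtain ⟨z, hz⟩ := ih h.2
      have hg := glue_iff.1 h.1
      simp only [fst] at hz ⊢
      refine ⟨(render (b :: l)).drop a.2, ?_⟩
      simp only [render]
      have h1 : a.1 = a.1.take (a.1.length - a.2) ++ suf a.2 a.1 := by
        rw [suf, List.take_append_drop]
      have h2 : suf a.2 a.1 = (render (b :: l)).take a.2 := by
        rw [hg.2.2, ← hz, List.take_append_of_le_length hg.2.1]
      conv_lhs => rw [h1, h2, List.append_assoc, List.take_append_drop]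

theorem mem_infix_render {T : Path α} (h : Valid T) {s : List α} (hs : s ∈ tops T) :
    s <:+: render T := by
  induction T with
  | nil => exact absurd h (by simp [Valid])
  | cons a l ih =>
    simp only [tops, List.map_cons, List.mem_cons] at hs
    rcases hs with rfl | hs
    · exact (fst_prefix_render h).isInfix
    · cases l with
      | nil => simp at hs
      | cons b l =>
        simp only [Valid] at h
        have := ih h.2 hs
        simp only [render]
        exact this.trans (List.suffix_append _ _).isInfix

/-! ### the run -/

/-- invariant of the run -/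
structure Inv (S : List (List α)) (st : ℕ × List (Path α)) : Prop where
  valid : ∀ T ∈ st.2, Valid T
  mem : ∀ s ∈ S, st.1 < s.length → ∃ T ∈ st.2, s ∈ tops T
  sub : ∀ T ∈ st.2, ∀ s ∈ tops T, s ∈ S ∧ st.1 < s.length

theorem inv_init (S : List (List α)) : Inv S (maxLen S, []) := by
  refine ⟨by simp, ?_, by simp⟩
  intro s hs h
  exfalso
  have : ∀ L : List (List α), s ∈ L → s.length ≤ maxLen L := by
    intro L hL
    induction L with
    | nil => simp at hL
    | cons a L ih =>
      simp only [List.mem_cons] at hL
      simp only [maxLen, List.map_cons, List.foldr_cons]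
      rcases hL with rfl | hL
      · exact le_max_left _ _
      · exact (ih hL).trans (le_max_right _ _)
  exact absurd h (not_lt.2 (this S hs))

theorem inv_step {S : List (List α)} {st : ℕ × List (Path α)} (h : Inv S st) :
    Inv S (step S st) := by
  obtain ⟨l, P⟩ := st
  unfold step
  cases hm : mergeOne l P with
  | some P' =>
    simp only [hm]
    obtain ⟨T, Q, N, rest, hp, rfl, ht⟩ := mergeOne_spec hm
    have hT : T ∈ P := hp.mem_iff.2 (by simp)
    have hQ : Q ∈ P := hp.mem_iff.2 (by simp)
    have hN := tryMerge_spec (h.valid T hT) (h.valid Q hQ) ht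
    refine ⟨?_, ?_, ?_⟩
    · intro R hR
      simp only [List.mem_cons] at hR
      rcases hR with rfl | hR
      · exact hN.valid
      · exact h.valid R (hp.mem_iff.2 (by simp [hR]))
    · intro s hs hl
      obtain ⟨R, hR, hsR⟩ := h.mem s hs hl
      have hR' := hp.mem_iff.1 hR
      simp only [List.mem_cons] at hR'
      rcases hR' with rfl | rfl | hR'
      · exact ⟨N, by simp, hN.tops.mem_iff.2 (by simp [hsR])⟩
      · exact ⟨N, by simp, hN.tops.mem_iff.2 (by simp [hsR])⟩
      · exact ⟨R, by simp [hR'], hsR⟩
    · intro R hR s hs
      simp only [List.mem_cons] at hR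
      rcases hR with rfl | hR
      · have := hN.tops.mem_iff.1 hs
        simp only [List.mem_append] at this
        rcases this with h1 | h1
        · exact h.sub T hT s h1
        · exact h.sub Q hQ s h1
      · exact h.sub R (hp.mem_iff.2 (by simp [hR])) s hs
  | none =>
    simp only [hm]
    cases l with
    | zero => exact h
    | succ l =>
      refine ⟨?_, ?_, ?_⟩
      · intro R hR
        simp only [List.mem_append, List.mem_map, List.mem_filter] at hR
        rcases hR with ⟨s, -, rfl⟩ | hR
        · simp [Valid]
        · exact h.valid R hR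
      · intro s hs hl
        simp only at hl
        by_cases h1 : s.length = l + 1
        · refine ⟨[(s, 0)], ?_, by simp [tops]⟩
          simp only [List.mem_append, List.mem_map, List.mem_filter]
          exact Or.inl ⟨s, ⟨hs, by simpa using h1⟩, rfl⟩
        · obtain ⟨R, hR, hsR⟩ := h.mem s hs (by simp only; omega)
          exact ⟨R, by simp only [List.mem_append]; exact Or.inr hR, hsR⟩
      · intro R hR s hs
        simp only [List.mem_append, List.mem_map, List.mem_filter] at hR
        rcases hR with ⟨t, ht, rfl⟩ | hR
        · simp only [tops, List.map_cons, List.map_nil, List.mem_singleton] at hs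
          subst hs
          refine ⟨ht.1, ?_⟩
          have := ht.2
          simp only [decide_eq_true_eq] at this
          simp only; omega
        · obtain ⟨h1, h2⟩ := h.sub R hR s hs
          exact ⟨h1, by simp only at h2 ⊢; omega⟩

/-- progress measure -/
def meas (S : List (List α)) (st : ℕ × List (Path α)) : ℕ :=
  st.1 + st.2.length + (S.filter (fun s => decide (s.length ≤ st.1))).length

theorem filter_succ (S : List (List α)) (l : ℕ) :
    (S.filter (fun s => decide (s.length ≤ l + 1))).length =
      (S.filter (fun s => decide (s.length = l + 1))).length +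
      (S.filter (fun s => decide (s.length ≤ l))).length := by
  induction S with
  | nil => rfl
  | cons a S ih =>
    by_cases h1 : a.length = l + 1
    · have h2 : ¬ a.length ≤ l := by omega
      simp [List.filter_cons, h1] at ih ⊢
      omega
    · by_cases h2 : a.length ≤ l
      · have h3 : a.length ≤ l + 1 := by omega
        simp [List.filter_cons, h1, h2, h3] at ih ⊢
        omega
      · have h3 : ¬ a.length ≤ l + 1 := by omega
        simp [List.filter_cons, h1, h2, h3] at ih ⊢
        omega

/-- a fixed point of the step function at level `0` -/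
def Done (st : ℕ × List (Path α)) : Prop := st.1 = 0 ∧ mergeOne 0 st.2 = none

theorem step_done {S : List (List α)} {st : ℕ × List (Path α)} (h : Done st) :
    step S st = st := by
  obtain ⟨l, P⟩ := st
  obtain ⟨h1, h2⟩ := h
  simp only at h1 h2
  subst h1
  simp [step, h2]

theorem meas_step {S : List (List α)} {st : ℕ × List (Path α)} (h : ¬ Done st) :
    meas S (step S st) + 1 ≤ meas S st := by
  obtain ⟨l, P⟩ := st
  unfold step
  cases hm : mergeOne l P with
  | some P' =>
    simp only [hm]
    obtain ⟨T, Q, N, rest, hp, rfl, ht⟩ := mergeOne_spec hm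
    have := hp.length_eq
    simp only [meas, List.length_cons] at this ⊢
    omega
  | none =>
    simp only [hm]
    cases l with
    | zero => exact absurd ⟨rfl, hm⟩ h
    | succ l =>
      have := filter_succ S l
      simp only [meas, List.length_append, List.length_map] at this ⊢
      omega

theorem iterate_done {S : List (List α)} (n : ℕ) :
    ∀ st : ℕ × List (Path α), meas S st ≤ n → Done ((step S)^[n] st) := by
  induction n with
  | zero =>
    intro st h
    by_contra hd
    have := meas_step (S := S) hd
    simp only [Function.iterate_zero, id] at this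
    omega
  | succ n ih =>
    intro st h
    by_cases hd : Done st
    · rw [Function.iterate_fixed (step_done hd)]; exact hd
    · rw [Function.iterate_succ_apply]
      exact ih _ (by have := meas_step (S := S) hd; omega)

theorem inv_iterate {S : List (List α)} (n : ℕ) {st : ℕ × List (Path α)} (h : Inv S st) :
    Inv S ((step S)^[n] st) := by
  induction n generalizing st with
  | zero => exact h
  | succ n ih => rw [Function.iterate_succ_apply]; exact ih (inv_step h)

theorem run_done (S : List (List α)) : Done (run S) := by
  apply iterate_done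
  have := List.length_filter_le (fun s => decide (s.length ≤ maxLen S)) S
  simp only [meas, List.length_nil]
  omega

theorem run_inv (S : List (List α)) : Inv S (run S) := inv_iterate _ (inv_init S)

theorem mergeOne_zero {P : List (Path α)} (hv : ∀ T ∈ P, Valid T) (h : mergeOne 0 P = none) :
    P.length ≤ 1 := by
  match P, hv, h with
  | [], _, _ => simp
  | [_], _, _ => simp
  | T :: Q :: rest, hv, h =>
    exfalso
    simp only [mergeOne, List.findSome?_eq_none_iff] at h
    have h1 := h (T, Q :: rest) (by simp [picks]) (Q, rest) (by simp [picks])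
    simp [tryMerge, glue, suf] at h1

/-- after the run there is at most one path -/
theorem run_length (S : List (List α)) : (run S).2.length ≤ 1 :=
  mergeOne_zero (run_inv S).valid (run_done S).2

/-! ### cleaning -/

theorem mem_clean_infix (S : List (List α)) {s : List α} (hs : s ∈ S) :
    ∃ t ∈ clean S, s <:+: t := by
  -- take a longest string containing s
  have hex : ∃ n, ∃ t ∈ S, s <:+: t ∧ t.length = n := ⟨_, s, hs, List.infix_refl _, rfl⟩
  obtain ⟨N, hN⟩ : ∃ N, ∀ t ∈ S, t.length ≤ N := by
    refine ⟨maxLen S, ?_⟩
    intro t ht
    have : ∀ L : List (List α), t ∈ L → t.length ≤ maxLen L := by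
      intro L hL
      induction L with
      | nil => simp at hL
      | cons a L ih =>
        simp only [List.mem_cons] at hL
        simp only [maxLen, List.map_cons, List.foldr_cons]
        rcases hL with rfl | hL
        · exact le_max_left _ _
        · exact (ih hL).trans (le_max_right _ _)
    exact this S ht
  have hb : ∃ t ∈ S, s <:+: t ∧ ∀ t' ∈ S, s <:+: t' → t'.length ≤ t.length := by
    by_contra hcon
    push Not at hcon
    have : ∀ n : ℕ, ∃ t ∈ S, s <:+: t ∧ n ≤ t.length := by
      intro n
      induction n with
      | zero => exact ⟨s, hs, List.infix_refl _, Nat.zero_le _⟩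
      | succ n ih =>
        obtain ⟨t, ht, hst, hn⟩ := ih
        obtain ⟨t', ht', hst', hlt⟩ := hcon t ht hst
        exact ⟨t', ht', hst', by omega⟩
    obtain ⟨t, ht, -, hn⟩ := this (N + 1)
    have := hN t ht
    omega
  obtain ⟨t, ht, hst, hmax⟩ := hb
  refine ⟨t, ?_, hst⟩
  simp only [clean, List.mem_filter, List.mem_dedup, List.all_eq_true, Bool.or_eq_true,
    decide_eq_true_eq, Bool.not_eq_true', decide_eq_false_iff_not]
  refine ⟨ht, fun t' ht' => ?_⟩
  by_cases hi : t <:+: t'
  · left
    have h1 := hmax t' ht' (hst.trans hi)
    exact hi.eq_of_length (le_antisymm hi.length_le h1)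
  · exact Or.inr hi

theorem clean_sub (S : List (List α)) {s : List α} (hs : s ∈ clean S) : s ∈ S := by
  simp only [clean, List.mem_filter, List.mem_dedup] at hs
  exact hs.1

theorem clean_nodup (S : List (List α)) : (clean S).Nodup :=
  (List.nodup_dedup S).filter _

theorem clean_antichain (S : List (List α)) {s t : List α} (hs : s ∈ clean S) (ht : t ∈ clean S)
    (h : s <:+: t) : s = t := by
  simp only [clean, List.mem_filter, List.mem_dedup, List.all_eq_true, Bool.or_eq_true,
    decide_eq_true_eq, Bool.not_eq_true', decide_eq_false_iff_not] at hs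
  rcases hs.2 t (clean_sub S ht) with h1 | h1
  · exact h1
  · exact absurd h h1

/-- **Correctness**: every input string is a factor of the output. -/
theorem infix_alg (S : List (List α)) {s : List α} (hs : s ∈ S) : s <:+: alg S := by
  obtain ⟨t, ht, hst⟩ := mem_clean_infix S hs
  refine hst.trans ?_
  by_cases h0 : t.length = 0
  · rw [List.length_eq_zero_iff] at h0
    subst h0
    exact ⟨[], alg S, rfl⟩
  · have hI := run_inv (clean S)
    have hD := run_done (clean S)
    obtain ⟨T, hT, htT⟩ := hI.mem t ht (by rw [hD.1]; omega)
    have h1 := mem_infix_render (hI.valid T hT) htT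
    refine h1.trans ?_
    unfold alg
    obtain ⟨A, B, hAB⟩ := List.append_of_mem hT
    rw [hAB]
    simp only [List.map_append, List.map_cons, List.flatten_append, List.flatten_cons]
    exact ⟨(A.map render).flatten, (B.map render).flatten, by simp⟩

end Crest.Agent.R287
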