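import Crest.Agent.R287.AlgPF2
import Crest.Agent.R287.Correct

/-!
Row 287: `alg` is computable in polynomial time (typed layer `PF`).
-/

set_option autoImplicit false
set_option linter.unusedSectionVars false

namespace Crest.Agent.R287

open Crest.Agent.PT

variable {X α β γ δ : Type} [Enc X] [Enc α] [Enc β] [Enc γ] [Enc δ]
variable [DecidableEq α]

/-! ### bounds along the run -/

/-- all recorded overlaps are at most `M` -/
def OvLe (M : ℕ) (T : Path α) : Prop := ∀ e ∈ T, e.2 ≤ M

theorem OvLe.setLast {M k : ℕ} {T : Path α} (hT : OvLe M T) (hk : k ≤ M) :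
    OvLe M (setLast k T) := by
  induction T using List.reverseRecOn with
  | nil => exact hT
  | append_singleton l b _ =>
    rw [pf_setLast_append]
    intro e he
    rcases List.mem_append.1 he with he | he
    · exact hT e (List.mem_append_left _ he)
    · rw [List.mem_singleton.1 he]; exact hk

theorem OvLe.lst {M : ℕ} {T : Path α} (hT : OvLe M T) : (lst T).2 ≤ M := by
  induction T using List.reverseRecOn with
  | nil => exact Nat.zero_le _
  | append_singleton l b _ =>
    rw [pf_lst_append]
    exact hT b (by simp)

theorem OvLe.append {M : ℕ} {T Q : Path α} (hT : OvLe M T) (hQ : OvLe M Q) :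
    OvLe M (T ++ Q) := by
  intro e he
  rcases List.mem_append.1 he with he | he
  · exact hT e he
  · exact hQ e he

theorem OvLe.insertAt {M l : ℕ} {R N : Path α} {c : Path α × Path α} (hl : l ≤ M)
    (hR : OvLe M R) (h1 : OvLe M c.1) (h2 : OvLe M c.2) (h : insertAt l R c = some N) :
    OvLe M N := by
  have hov : ovAt l c.1 c.2 ≤ M := by
    unfold ovAt
    split_ifs
    · exact hl
    · exact h1.lst
  unfold R287.insertAt at h
  split_ifs at h
  · injection h with h
    subst h
    exact (h1.setLast hR.lst).append ((hR.setLast hov).append h2)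
  · injection h with h
    subst h
    exact h1.append (hR.append h2)

theorem OvLe.tryMerge {M l : ℕ} {T Q N : Path α} (hl : l ≤ M)
    (hT : OvLe M T) (hQ : OvLe M Q) (h : tryMerge l T Q = some N) : OvLe M N := by
  unfold R287.tryMerge at h
  split_ifs at h with h1 h2
  · injection h with h
    subst h
    exact (hT.setLast hl).append hQ
  · obtain ⟨R, hR, h3⟩ := List.exists_of_findSome?_eq_some h
    obtain ⟨c, hc, h4⟩ := List.exists_of_findSome?_eq_some h3
    obtain ⟨hperm, -⟩ := mem_rots hR
    have hcc := mem_cuts hc
    refine OvLe.insertAt hl (fun e he => ?_) (fun e he => ?_) (fun e he => ?_) h4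
    · exact (hT.setLast hl) e (hperm.mem_iff.1 he)
    · exact hQ e (by rw [← hcc]; exact List.mem_append_left _ he)
    · exact hQ e (by rw [← hcc]; exact List.mem_append_right _ he)

/-- total number of entries plus number of paths -/
def wt (P : List (Path α)) : ℕ := (P.map (fun T => T.length + 1)).sum

theorem wt_perm {P Q : List (Path α)} (h : P.Perm Q) : wt P = wt Q := (h.map _).sum_eq

/-- bounds for the state -/
structure Bd (S : List (List α)) (i : ℕ) (st : ℕ × List (Path α)) : Prop where
  inv : Inv S st
  lev : st.1 ≤ maxLen S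
  ov : ∀ T ∈ st.2, OvLe (maxLen S) T
  wt : wt st.2 ≤ 2 * S.length * i

theorem bd_step {S : List (List α)} {i : ℕ} {st : ℕ × List (Path α)} (h : Bd S i st) :
    Bd S (i + 1) (step S st) := by
  obtain ⟨hinv, hlev, hov, hwt⟩ := h
  refine ⟨inv_step hinv, ?_, ?_, ?_⟩
  · unfold step
    cases hm : mergeOne st.1 st.2 with
    | some P' => exact hlev
    | none =>
      obtain ⟨l, P⟩ := st
      cases l with
      | zero => exact Nat.zero_le _
      | succ l =>
        simp only at hlev ⊢
        omega
  · unfold step
    cases hm : mergeOne st.1 st.2 with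
    | some P' =>
      obtain ⟨T, Q, N, rest, hp, rfl, ht⟩ := mergeOne_spec hm
      intro R hR
      rcases List.mem_cons.1 hR with rfl | hR
      · exact OvLe.tryMerge hlev (hov T (hp.mem_iff.2 (by simp)))
          (hov Q (hp.mem_iff.2 (by simp))) ht
      · exact hov R (hp.mem_iff.2 (by simp [hR]))
    | none =>
      obtain ⟨l, P⟩ := st
      cases l with
      | zero => exact hov
      | succ l =>
        intro R hR
        simp only [List.mem_append, List.mem_map] at hR
        rcases hR with ⟨s, -, rfl⟩ | hR
        · intro e he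
          rw [List.mem_singleton.1 he]
          exact Nat.zero_le _
        · exact hov R hR
  · have hle : 2 * S.length * (i + 1) = 2 * S.length * i + 2 * S.length := by ring
    rw [hle]
    unfold step
    cases hm : mergeOne st.1 st.2 with
    | some P' =>
      obtain ⟨T, Q, N, rest, hp, rfl, ht⟩ := mergeOne_spec hm
      have hN := tryMerge_spec (hinv.valid T (hp.mem_iff.2 (by simp)))
        (hinv.valid Q (hp.mem_iff.2 (by simp))) ht
      have hlen := hN.tops.length_eq
      simp only [tops, List.length_append, List.length_map] at hlen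
      have h1 := wt_perm hp
      simp only [R287.wt, List.map_cons, List.sum_cons] at h1 hwt ⊢
      omega
    | none =>
      obtain ⟨l, P⟩ := st
      cases l with
      | zero => simp only at hwt ⊢; omega
      | succ l =>
        simp only [R287.wt] at hwt ⊢
        rw [List.map_append, List.sum_append, List.map_map]
        have h2 : (List.map ((fun T : Path α => T.length + 1) ∘ fun s => [(s, 0)])
            (List.filter (fun s => decide (s.length = l + 1)) S)).sum ≤ 2 * S.length := by
          have h3 : ((fun T : Path α => T.length + 1) ∘ fun s : List α => [(s, 0)]) =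
              fun _ => 2 := by
            funext s; rfl
          rw [h3, List.map_const', List.sum_replicate, smul_eq_mul]
          have := List.length_filter_le (fun s : List α => decide (s.length = l + 1)) S
          omega
        omega

theorem bd_iter (S : List (List α)) (i : ℕ) : Bd S i ((step S)^[i] (maxLen S, [])) := by
  induction i with
  | zero =>
    exact ⟨inv_init S, le_refl _, fun T hT => absurd hT (by simp), by simp [R287.wt]⟩
  | succ i ih =>
    rw [Function.iterate_succ_apply']
    exact bd_step ih

theorem sz_path_le {E : ℕ} (T : Path α) (h : ∀ e ∈ T, sz e ≤ E) :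
    sz T ≤ T.length * (2 * E + 1) := by
  induction T with
  | nil => simp
  | cons a l ih =>
    have h1 := h a (by simp)
    have h2 := ih (fun e he => h e (by simp [he]))
    rw [TLib.sz_cons, List.length_cons, add_mul]
    omega

theorem sz_paths_le {E : ℕ} (P : List (Path α)) (h : ∀ T ∈ P, ∀ e ∈ T, sz e ≤ E) :
    sz P ≤ wt P * (2 * (2 * E + 1)) := by
  induction P with
  | nil => simp [R287.wt]
  | cons T l ih =>
    have h1 := sz_path_le T (h T (by simp))
    have h2 := ih (fun Q hQ => h Q (by simp [hQ]))
    rw [TLib.sz_cons]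
    simp only [R287.wt, List.map_cons, List.sum_cons] at h2 ⊢
    have h3 : (T.length + 1 + (List.map (fun T => T.length + 1) l).sum) * (2 * (2 * E + 1)) =
      2 * (T.length * (2 * E + 1)) + 2 * (2 * E + 1) +
        (List.map (fun T => T.length + 1) l).sum * (2 * (2 * E + 1)) := by ring
    rw [h3]
    omega

theorem maxLen_le_sz (S : List (List α)) : maxLen S ≤ sz S := by
  induction S with
  | nil => simp [maxLen]
  | cons a S ih =>
    have h1 := TLib.length_le_sz a
    rw [TLib.sz_cons]
    simp only [maxLen, List.map_cons, List.foldr_cons] at ih ⊢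
    omega

theorem sz_run_le (S : List (List α)) (i : ℕ) (hi : i ≤ S.length + maxLen S + 1) :
    sz ((step S)^[i] (maxLen S, [])) ≤
      2 * sz S + 1 + (2 * sz S * (2 * sz S + 1)) * (2 * (2 * (3 * sz S + 1) + 1)) := by
  have hb := bd_iter S i
  generalize (step S)^[i] (maxLen S, []) = st at hb
  obtain ⟨l, P⟩ := st
  have hM := maxLen_le_sz S
  have hL := TLib.length_le_sz S
  rw [TLib.sz_pair, TNat.sz_nat]
  have h1 : sz P ≤ wt P * (2 * (2 * (3 * sz S + 1) + 1)) := by
    refine sz_paths_le P fun T hT e he => ?_
    obtain ⟨s, o⟩ := e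
    rw [TLib.sz_pair, TNat.sz_nat]
    have h2 : sz s ≤ sz S := TLib.sz_mem (hb.inv.sub T hT s (List.mem_map.2 ⟨_, he, rfl⟩)).1
    have h3 : o ≤ maxLen S := hb.ov T hT _ he
    omega
  have h2 : wt P ≤ 2 * sz S * (2 * sz S + 1) :=
    hb.wt.trans (Nat.mul_le_mul (by omega) (by omega))
  have h3 := Nat.mul_le_mul_right (2 * (2 * (3 * sz S + 1) + 1)) h2
  have h4 : l ≤ maxLen S := hb.lev
  omega

/-! ### the algorithm -/

theorem PF_run {S : X → List (List α)} (hS : PF S) : PF (fun a => run (S a)) := by
  obtain ⟨P, hP⟩ := hS.size
  refine PF.iterate (f := fun p : X × (ℕ × List (Path α)) => step (S p.1) p.2)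
    (n := fun a => (S a).length + maxLen (S a) + 1) (b := fun a => (maxLen (S a), []))
    (PF_step (PF.comp hS (PF.fst PF.id)) (PF.snd PF.id))
    (PF.succ (PF.add (PF.length hS) (PF_maxLen hS)))
    (PF.pair (PF_maxLen hS) (PF.const []))
    ⟨2 * P + 1 + (2 * P * (2 * P + 1)) * (2 * (2 * (3 * P + 1) + 1)), fun a i hi => ?_⟩
  refine (sz_run_le (S a) i hi).trans ?_
  have h := hP a
  simp only [Polynomial.eval_add, Polynomial.eval_mul, Polynomial.eval_ofNat,
    Polynomial.eval_one]
  gcongr

theorem PF_alg {S : X → List (List α)} (hS : PF S) : PF (fun a => alg (S a)) := by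
  exact PF.flatten (PF.map (f := fun p : X × Path α => render p.2) (PF_render (PF.snd PF.id))
    (PF.snd (PF_run (PF_clean hS))))

end Crest.Agent.R287
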