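import Crest.Agent.PT.TLib
import Crest.Agent.R287.Alg

/-!
Row 287: polynomial-time implementation (class `PF`) of the functions used by `alg`.
-/

set_option autoImplicit false
set_option linter.unusedSectionVars false

namespace Crest.Agent.R287

open Crest.Agent.PT

variable {X α β γ δ : Type} [Enc X] [Enc α] [Enc β] [Enc γ] [Enc δ]

/-! ### generic additions -/

theorem PF_toList {o : X → Option β} (ho : PF o) : PF (fun a => (o a).toList) := by
  refine TLib.congr (PF.option_cases (f := fun _ => ([] : List β))
    (g := fun p : X × β => [p.2]) ho (PF.const []) (PF.cons (PF.snd PF.id) (PF.const []))) ?_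
  intro a
  cases o a <;> rfl

theorem findSome?_eq (f : β → Option γ) (l : List β) :
    l.findSome? f = (l.flatMap (fun b => (f b).toList)).head? := by
  induction l with
  | nil => rfl
  | cons a l ih =>
    rw [List.findSome?_cons, List.flatMap_cons]
    cases h : f a with
    | none => simpa using ih
    | some b => rfl

theorem PF_findSome? {f : X × β → Option γ} {l : X → List β} (hf : PF f) (hl : PF l) :
    PF (fun a => (l a).findSome? (fun b => f (a, b))) := by
  refine TLib.congr (PF.head? (PF.flatMap (f := fun p => (f p).toList) (PF_toList hf) hl)) ?_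
  intro a
  rw [findSome?_eq]

theorem PF_omap {f : X × β → γ} {o : X → Option β} (hf : PF f) (ho : PF o) :
    PF (fun a => (o a).map (fun b => f (a, b))) := by
  refine TLib.congr (PF.option_cases (f := fun _ => (none : Option γ))
    (g := fun p : X × β => some (f p)) ho (PF.const none) (PF.osome hf)) ?_
  intro a
  cases o a <;> rfl

/-- all cuts, generic form -/
def gcuts {β : Type} (L : List β) : List (List β × List β) :=
  (List.range (L.length + 1)).map (fun i => (L.take i, L.drop i))

theorem gcuts_nil {β : Type} : gcuts ([] : List β) = [([], [])] := rfl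

theorem gcuts_cons {β : Type} (a : β) (l : List β) :
    gcuts (a :: l) = ([], a :: l) :: (gcuts l).map (fun p => (a :: p.1, p.2)) := by
  unfold gcuts
  rw [List.length_cons, List.range_succ_eq_map, List.map_cons, List.map_map, List.map_map]
  rfl

theorem PF_gcuts {L : X → List β} (hL : PF L) : PF (fun a => gcuts (L a)) := by
  unfold gcuts
  exact PF.map (f := fun p : X × ℕ => ((L p.1).take p.2, (L p.1).drop p.2))
    (PF.pair (PF.take (PF.snd PF.id) (PF.comp hL (PF.fst PF.id)))
      (PF.drop (PF.snd PF.id) (PF.comp hL (PF.fst PF.id)))) (PF.range (PF.succ (PF.length hL)))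

theorem picks_eq {β : Type} (L : List β) : picks L = (gcuts L).flatMap (fun c => match c.2 with
    | [] => []
    | b :: B => [(b, c.1 ++ B)]) := by
  induction L with
  | nil => rfl
  | cons a l ih =>
    rw [picks, gcuts_cons, List.flatMap_cons, ih, List.map_flatMap, List.flatMap_map]
    simp only [List.nil_append, List.singleton_append, List.cons.injEq, true_and]
    congr 1
    funext c
    cases c.2 <;> rfl

theorem PF_picks {L : X → List β} (hL : PF L) : PF (fun a => picks (L a)) := by
  have h1 : PF (fun p : X × (List β × List β) => match p.2.2 with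
    | [] => ([] : List (β × List β))
    | b :: B => [(b, p.2.1 ++ B)]) := by
    exact PF.list_cases (l := fun p : X × (List β × List β) => p.2.2)
      (f := fun _ => ([] : List (β × List β)))
      (g := fun q : (X × (List β × List β)) × β × List β => [(q.2.1, q.1.2.1 ++ q.2.2)])
      (PF.snd (PF.snd PF.id)) (PF.const [])
      (PF.cons (PF.pair (PF.fst (PF.snd PF.id))
        (PF.append (PF.fst (PF.snd (PF.fst PF.id))) (PF.snd (PF.snd PF.id)))) (PF.const []))
  refine TLib.congr (PF.flatMap h1 (PF_gcuts hL)) ?_
  intro a
  rw [picks_eq]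

/-! ### the functions of the algorithm -/

section
variable [DecidableEq α]

theorem PF_suf {k : X → ℕ} {x : X → List α} (hk : PF k) (hx : PF x) :
    PF (fun a => suf (k a) (x a)) :=
  PF.drop (PF.sub (PF.length hx) hk) hx

theorem PF_glue {k : X → ℕ} {x y : X → List α} (hk : PF k) (hx : PF x) (hy : PF y) :
    PF (fun a => glue (k a) (x a) (y a)) :=
  PF.band (PF.band (PF.le hk (PF.length hx)) (PF.le hk (PF.length hy)))
    (PF.beq (PF_suf hk hx) (PF.take hk hy))

theorem PF_comSuf {k : X → ℕ} {x y : X → List α} (hk : PF k) (hx : PF x) (hy : PF y) :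
    PF (fun a => comSuf (k a) (x a) (y a)) :=
  PF.band (PF.band (PF.le hk (PF.length hx)) (PF.le hk (PF.length hy)))
    (PF.beq (PF_suf hk hx) (PF_suf hk hy))

theorem PF_comPre {k : X → ℕ} {x y : X → List α} (hk : PF k) (hx : PF x) (hy : PF y) :
    PF (fun a => comPre (k a) (x a) (y a)) :=
  PF.band (PF.band (PF.le hk (PF.length hx)) (PF.le hk (PF.length hy)))
    (PF.beq (PF.take hk hx) (PF.take hk hy))

theorem PF_fst {T : X → Path α} (hT : PF T) : PF (fun a => fst (T a)) := by
  refine TLib.congr (PF.list_cases (l := T) (f := fun _ => ([] : List α))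
    (g := fun p : X × (List α × ℕ) × List (List α × ℕ) => p.2.1.1) hT (PF.const [])
    (PF.fst (PF.fst (PF.snd PF.id)))) ?_
  intro a
  cases T a <;> rfl

theorem pf_lst_append (T : Path α) (a : List α × ℕ) : lst (T ++ [a]) = a := by
  induction T with
  | nil => rfl
  | cons b T ih =>
    cases T with
    | nil => rfl
    | cons c T => exact ih

theorem pf_setLast_append (k : ℕ) (T : Path α) (a : List α × ℕ) :
    setLast k (T ++ [a]) = T ++ [(a.1, k)] := by
  induction T with
  | nil => rfl
  | cons b T ih =>
    cases T with
    | nil => rfl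
    | cons c T =>
      change b :: setLast k (c :: T ++ [a]) = _
      rw [ih]; rfl

theorem pf_render_append (T : Path α) (a : List α × ℕ) :
    render (T ++ [a]) = (T.map (fun e => e.1.take (e.1.length - e.2))).flatten ++ a.1 := by
  induction T with
  | nil => rfl
  | cons b T ih =>
    cases T with
    | nil => simp [render]
    | cons c T =>
      change b.1.take (b.1.length - b.2) ++ render (c :: T ++ [a]) = _
      rw [ih]; simp

theorem PF_lst {T : X → Path α} (hT : PF T) : PF (fun a => lst (T a)) := by
  refine TLib.congr (PF.list_cases (l := fun a => (T a).reverse) (f := fun _ => (([] : List α), 0))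
    (g := fun p : X × (List α × ℕ) × List (List α × ℕ) => p.2.1) (PF.reverse hT) (PF.const _)
    (PF.fst (PF.snd PF.id))) ?_
  intro a
  induction T a using List.reverseRecOn with
  | nil => rfl
  | append_singleton l b _ => rw [pf_lst_append]; simp

theorem PF_setLast {k : X → ℕ} {T : X → Path α} (hk : PF k) (hT : PF T) :
    PF (fun a => setLast (k a) (T a)) := by
  refine TLib.congr (PF.list_cases (l := fun a => (T a).reverse)
    (f := fun _ => ([] : List (List α × ℕ)))
    (g := fun p : X × (List α × ℕ) × List (List α × ℕ) => p.2.2.reverse ++ [(p.2.1.1, k p.1)])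
    (PF.reverse hT) (PF.const _)
    (PF.append (PF.reverse (PF.snd (PF.snd PF.id)))
      (PF.cons (PF.pair (PF.fst (PF.fst (PF.snd PF.id))) (PF.comp hk (PF.fst PF.id)))
        (PF.const [])))) ?_
  intro a
  induction T a using List.reverseRecOn with
  | nil => rfl
  | append_singleton l b _ => rw [pf_setLast_append]; simp

theorem PF_render {T : X → Path α} (hT : PF T) : PF (fun a => render (T a)) := by
  have hg : PF (fun e : (X × (List α × ℕ) × List (List α × ℕ)) × (List α × ℕ) =>
      e.2.1.take (e.2.1.length - e.2.2)) :=
    PF.take (PF.sub (PF.length (PF.fst (PF.snd PF.id))) (PF.snd (PF.snd PF.id)))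
      (PF.fst (PF.snd PF.id))
  refine TLib.congr (PF.list_cases (l := fun a => (T a).reverse)
    (f := fun _ => ([] : List α))
    (g := fun p : X × (List α × ℕ) × List (List α × ℕ) =>
      ((p.2.2.reverse).map (fun e => e.1.take (e.1.length - e.2))).flatten ++ p.2.1.1)
    (PF.reverse hT) (PF.const _)
    (PF.append (PF.flatten (PF.map hg (PF.reverse (PF.snd (PF.snd PF.id)))))
      (PF.fst (PF.fst (PF.snd PF.id))))) ?_
  intro a
  induction T a using List.reverseRecOn with
  | nil => rfl
  | append_singleton l b _ => rw [pf_render_append]; simp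

theorem PF_rot {T : X → Path α} (hT : PF T) : PF (fun a => rot (T a)) := by
  refine TLib.congr (PF.list_cases (l := T) (f := fun _ => ([] : List (List α × ℕ)))
    (g := fun p : X × (List α × ℕ) × List (List α × ℕ) => p.2.2 ++ [p.2.1]) hT (PF.const [])
    (PF.append (PF.snd (PF.snd PF.id)) (PF.cons (PF.fst (PF.snd PF.id)) (PF.const [])))) ?_
  intro a
  cases T a <;> rfl

theorem sz_rot (T : Path α) : sz (rot T) = sz T := by
  cases T with
  | nil => rfl
  | cons a l => simp only [rot, TLib.sz_append, TLib.sz_cons, TLib.sz_nil]; omega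

theorem sz_rot_iter (T : Path α) (i : ℕ) : sz (rot^[i] T) = sz T := by
  induction i with
  | zero => rfl
  | succ i ih => rw [Function.iterate_succ_apply', sz_rot, ih]

theorem rots_eq (n : ℕ) (T : Path α) :
    rots n T = (List.range n).map (fun i => rot^[i] T) := by
  induction n generalizing T with
  | zero => rfl
  | succ n ih =>
    rw [rots, ih, List.range_succ_eq_map, List.map_cons, List.map_map]
    rfl

theorem PF_rots {n : X → ℕ} {T : X → Path α} (hn : PF n) (hT : PF T) :
    PF (fun a => rots (n a) (T a)) := by
  have hT' : PF (fun p : X × ℕ => T p.1) := PF.comp hT (PF.fst PF.id)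
  obtain ⟨P, hP⟩ := hT'.size
  have h1 : PF (fun p : X × ℕ => rot^[p.2] (T p.1)) :=
    PF.iterate (f := fun q : (X × ℕ) × Path α => rot q.2) (n := fun p : X × ℕ => p.2)
      (b := fun p : X × ℕ => T p.1) (PF_rot (PF.snd PF.id)) (PF.snd PF.id) hT'
      ⟨P, fun p i _ => by
        change sz (rot^[i] (T p.1)) ≤ _
        rw [sz_rot_iter]
        exact hP p⟩
  refine TLib.congr (PF.map h1 (PF.range hn)) ?_
  intro a
  rw [rots_eq]

theorem cuts_eq (T : Path α) : cuts T = gcuts T := by
  induction T with
  | nil => rfl
  | cons a l ih => rw [gcuts_cons, cuts, ih]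

theorem PF_cuts {T : X → Path α} (hT : PF T) : PF (fun a => cuts (T a)) := by
  refine TLib.congr (PF_gcuts hT) ?_
  intro a
  rw [cuts_eq]

theorem PF_closedAt {l : X → ℕ} {T : X → Path α} (hl : PF l) (hT : PF T) :
    PF (fun a => closedAt (l a) (T a)) :=
  PF_glue hl (PF.fst (PF_lst hT)) (PF_fst hT)

end

end Crest.Agent.R287
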