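import Crest.Agent.R287.AlgPF1

set_option autoImplicit false
set_option linter.unusedSectionVars false

namespace Crest.Agent.R287

open Crest.Agent.PT

variable {X α β γ δ : Type} [Enc X] [Enc α] [Enc β] [Enc γ] [Enc δ]

section
variable [DecidableEq α]

theorem PF_ovAt {l : X → ℕ} {A B : X → Path α} (hl : PF l) (hA : PF A) (hB : PF B) :
    PF (fun a => ovAt (l a) (A a) (B a)) :=
  PF.cond (PF.bor (PF.isEmpty hA) (PF.isEmpty hB)) hl (PF.snd (PF_lst hA))

theorem PF_insertAt {l : X → ℕ} {R : X → Path α} {c : X → Path α × Path α} (hl : PF l)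
    (hR : PF R) (hc : PF c) : PF (fun a => insertAt (l a) (R a) (c a)) := by
  have ho := PF_ovAt hl (PF.fst hc) (PF.snd hc)
  have hR2 : PF (fun a => (lst (R a)).2) := PF.snd (PF_lst hR)
  have hm := PF.max hR2 ho
  refine TLib.congr (PF.cond
    (PF.band (PF.bnot (PF.isEmpty (PF.fst hc)))
      (PF_comSuf hm (PF.fst (PF_lst hR)) (PF.fst (PF_lst (PF.fst hc)))))
    (PF.osome (PF.append (PF_setLast hR2 (PF.fst hc)) (PF.append (PF_setLast ho hR) (PF.snd hc))))
    (PF.cond (PF.band (PF.bnot (PF.isEmpty (PF.snd hc)))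
      (PF_comPre hm (PF_fst hR) (PF_fst (PF.snd hc))))
      (PF.osome (PF.append (PF.fst hc) (PF.append hR (PF.snd hc)))) (PF.const none))) ?_
  intro a
  rfl

theorem PF_tryMerge {l : X → ℕ} {T Q : X → Path α} (hl : PF l) (hT : PF T) (hQ : PF Q) :
    PF (fun a => tryMerge (l a) (T a) (Q a)) := by
  have h1 : PF (fun p : (X × Path α) × (Path α × Path α) => insertAt (l p.1.1) p.1.2 p.2) :=
    PF_insertAt (PF.comp hl (PF.fst (PF.fst PF.id))) (PF.snd (PF.fst PF.id)) (PF.snd PF.id)
  have h2 : PF (fun p : X × Path α => (cuts (Q p.1)).findSome? (insertAt (l p.1) p.2)) :=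
    PF_findSome? h1 (PF_cuts (PF.comp hQ (PF.fst PF.id)))
  have h3 : PF (fun a => (rots (T a).length (setLast (l a) (T a))).findSome?
      (fun R => (cuts (Q a)).findSome? (insertAt (l a) R))) :=
    PF_findSome? h2 (PF_rots (PF.length hT) (PF_setLast hl hT))
  exact PF.cond (PF_glue hl (PF.fst (PF_lst hT)) (PF_fst hQ))
    (PF.osome (PF.append (PF_setLast hl hT) hQ))
    (PF.cond (PF_closedAt hl hT) h3 (PF.const none))

theorem PF_mergeOne {l : X → ℕ} {P : X → List (Path α)} (hl : PF l) (hP : PF P) :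
    PF (fun a => mergeOne (l a) (P a)) := by
  have h1 : PF (fun p : (X × (Path α × List (Path α))) × (Path α × List (Path α)) =>
      tryMerge (l p.1.1) p.1.2.1 p.2.1) :=
    PF_tryMerge (PF.comp hl (PF.fst (PF.fst PF.id))) (PF.fst (PF.snd (PF.fst PF.id)))
      (PF.fst (PF.snd PF.id))
  have h2 : PF (fun p : (X × (Path α × List (Path α))) × (Path α × List (Path α)) =>
      (tryMerge (l p.1.1) p.1.2.1 p.2.1).map (fun N => N :: p.2.2)) :=
    PF_omap (f := fun q : ((X × (Path α × List (Path α))) × (Path α × List (Path α))) × Path α =>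
      q.2 :: q.1.2.2) (PF.cons (PF.snd PF.id) (PF.snd (PF.snd (PF.fst PF.id)))) h1
  have h3 : PF (fun p : X × (Path α × List (Path α)) =>
      (picks p.2.2).findSome? fun qr => (tryMerge (l p.1) p.2.1 qr.1).map (fun N => N :: qr.2)) :=
    PF_findSome? h2 (PF_picks (PF.snd (PF.snd PF.id)))
  exact PF_findSome? h3 (PF_picks hP)

theorem PF_step {S : X → List (List α)} {st : X → ℕ × List (Path α)} (hS : PF S) (hst : PF st) :
    PF (fun a => step (S a) (st a)) := by
  have hfil : PF (fun p : X × ℕ => (S p.1).filter (fun s => decide (s.length = p.2 + 1))) :=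
    PF.filter (f := fun q : (X × ℕ) × List α => decide (q.2.length = q.1.2 + 1))
      (PF.beq (PF.length (PF.snd PF.id)) (PF.succ (PF.snd (PF.fst PF.id))))
      (PF.comp hS (PF.fst PF.id))
  have hnew : PF (fun p : X × ℕ => (p.2,
      ((S p.1).filter (fun s => decide (s.length = p.2 + 1))).map (fun s => [(s, 0)])
        ++ (st p.1).2)) :=
    PF.pair (PF.snd PF.id) (PF.append
      (PF.map (f := fun q : (X × ℕ) × List α => [(q.2, 0)])
        (PF.cons (PF.pair (PF.snd PF.id) (PF.const 0)) (PF.const [])) hfil)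
      (PF.snd (PF.comp hst (PF.fst PF.id))))
  have hzero : PF (fun a => match (st a).1 with
      | 0 => (0, (st a).2)
      | l + 1 => (l, ((S a).filter (fun s : List α => decide (s.length = l + 1))).map
          (fun s => [(s, 0)]) ++ (st a).2)) :=
    TLib.congr (PF.nat_cases (f := fun a => (0, (st a).2)) (g := fun p : X × ℕ => (p.2,
      ((S p.1).filter (fun s => decide (s.length = p.2 + 1))).map (fun s => [(s, 0)])
        ++ (st p.1).2)) (PF.fst hst) (PF.pair (PF.const 0) (PF.snd hst)) hnew)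
      (fun a => by cases (st a).1 <;> rfl)
  refine TLib.congr (PF.option_cases (o := fun a => mergeOne (st a).1 (st a).2)
    (g := fun p : X × List (Path α) => ((st p.1).1, p.2))
    (PF_mergeOne (PF.fst hst) (PF.snd hst)) hzero
    (PF.pair (PF.fst (PF.comp hst (PF.fst PF.id))) (PF.snd PF.id))) ?_
  intro a
  unfold step
  cases mergeOne (st a).1 (st a).2 <;> rfl

theorem dedup_eq [DecidableEq β] (l : List β) :
    l.dedup = l.reverse.foldl (fun x c => if decide (c ∈ x) = true then x else c :: x) [] := by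
  rw [List.foldl_reverse]
  induction l with
  | nil => rfl
  | cons a l ih =>
    rw [List.foldr_cons, ← ih]
    by_cases h : a ∈ l
    · rw [List.dedup_cons_of_mem h]; simp [List.mem_dedup.2 h]
    · rw [List.dedup_cons_of_notMem h]; simp [h]

theorem PF_dedup [DecidableEq β] {l : X → List β} (hl : PF l) : PF (fun a => (l a).dedup) := by
  obtain ⟨P, hP⟩ := hl.size
  have hf : PF (fun p : X × List β × β =>
      if decide (p.2.2 ∈ p.2.1) = true then p.2.1 else p.2.2 :: p.2.1) :=
    PF.cond (PF.mem (PF.snd (PF.snd PF.id)) (PF.fst (PF.snd PF.id))) (PF.fst (PF.snd PF.id))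
      (PF.cons (PF.snd (PF.snd PF.id)) (PF.fst (PF.snd PF.id)))
  refine TLib.congr (PF.foldl (b := fun _ => ([] : List β)) (l := fun a => (l a).reverse) hf
    (PF.const []) (PF.reverse hl) ⟨P, fun a l' hl' => ?_⟩) ?_
  · have h1 := dedup_eq l'.reverse
    rw [List.reverse_reverse] at h1
    change sz (l'.foldl (fun x c => if decide (c ∈ x) = true then x else c :: x) []) ≤ _
    rw [← h1]
    refine (TLib.sz_sublist (List.dedup_sublist _)).trans ?_
    rw [TLib.sz_reverse]
    refine (TLib.sz_prefix hl').trans ?_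
    rw [TLib.sz_reverse]
    exact hP a
  · intro a
    rw [dedup_eq]

theorem PF_clean {S : X → List (List α)} (hS : PF S) : PF (fun a => clean (S a)) := by
  have h1 : PF (fun p : (X × List α) × List α => decide (p.1.2 = p.2) || !decide (p.1.2 <:+: p.2)) :=
    PF.bor (PF.beq (PF.snd (PF.fst PF.id)) (PF.snd PF.id))
      (PF.bnot (PF.isInfixOf (PF.snd (PF.fst PF.id)) (PF.snd PF.id)))
  exact PF.filter (f := fun p : X × List α =>
    (S p.1).all (fun t => decide (p.2 = t) || !decide (p.2 <:+: t)))
    (PF.all h1 (PF.comp hS (PF.fst PF.id))) (PF_dedup hS)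

theorem foldl_max (l : List ℕ) (k : ℕ) : l.foldl (fun x c => Nat.max x c) k =
    Nat.max k (l.foldr max 0) := by
  induction l generalizing k with
  | nil => simp
  | cons a l ih =>
    rw [List.foldl_cons, ih, List.foldr_cons]
    exact Nat.max_assoc _ _ _

theorem foldr_max_le (l : List ℕ) : l.foldr max 0 ≤ sz l := by
  induction l with
  | nil => simp
  | cons a l ih =>
    rw [List.foldr_cons, TLib.sz_cons, TNat.sz_nat]
    omega

theorem PF_maxLen {S : X → List (List α)} (hS : PF S) : PF (fun a => maxLen (S a)) := by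
  have hm : PF (fun a => (S a).map List.length) :=
    PF.map (f := fun p : X × List α => p.2.length) (PF.length (PF.snd PF.id)) hS
  obtain ⟨P, hP⟩ := hm.size
  refine TLib.congr (PF.foldl (f := fun p : X × ℕ × ℕ => Nat.max p.2.1 p.2.2) (b := fun _ => 0)
    (PF.max (PF.fst (PF.snd PF.id)) (PF.snd (PF.snd PF.id))) (PF.const 0) hm
    ⟨P, fun a l' hl' => ?_⟩) ?_
  · rw [foldl_max, TNat.sz_nat]
    have h1 := foldr_max_le l'
    have h2 := TLib.sz_prefix hl'
    have h3 := hP a
    rw [show Nat.max 0 (List.foldr max 0 l') = List.foldr max 0 l' from Nat.zero_max _]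
    exact (h1.trans h2).trans h3
  · intro a
    rw [foldl_max]
    simp [maxLen]

end

end Crest.Agent.R287
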