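import Crest.Agent.PT.IO
import Crest.Agent.R287.AlgPF

/-!
Row 287: assembly of S0432 from the combinatorial theorem.
-/

set_option autoImplicit false
set_option linter.unusedSectionVars false

namespace Crest.Agent.R287

open Crest.Agent.PT

/-- every symbol of `render T` occurs in a string of `T` -/
theorem mem_render {α : Type} [DecidableEq α] {T : Path α} {x : α} (h : x ∈ render T) :
    ∃ s ∈ tops T, x ∈ s := by
  induction T with
  | nil => simp [render] at h
  | cons a l ih =>
    cases l with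
    | nil => exact ⟨a.1, by simp [tops], h⟩
    | cons b l =>
      simp only [render, List.mem_append] at h
      rcases h with h | h
      · exact ⟨a.1, by simp [tops], List.mem_of_mem_take h⟩
      · obtain ⟨s, hs, hx⟩ := ih h
        exact ⟨s, by simp only [tops, List.map_cons, List.mem_cons] at hs ⊢; exact Or.inr hs, hx⟩

/-- every symbol of the output occurs in an input string -/
theorem mem_alg {α : Type} [DecidableEq α] {S : List (List α)} {x : α} (h : x ∈ alg S) :
    ∃ s ∈ S, x ∈ s := by
  unfold alg at h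
  rw [List.mem_flatten] at h
  obtain ⟨r, hr, hx⟩ := h
  obtain ⟨T, hT, rfl⟩ := List.mem_map.1 hr
  obtain ⟨s, hs, hxs⟩ := mem_render hx
  exact ⟨s, clean_sub S ((run_inv (clean S)).sub T hT s hs).1, hxs⟩

theorem infix_of_map {α β : Type} {f : α → β} (hf : Function.Injective f) {l m : List α}
    (h : l.map f <:+: m.map f) : l <:+: m := by
  obtain ⟨s, t, h⟩ := h
  obtain ⟨u, v, rfl, huv, hv⟩ := List.map_eq_append_iff.1 h.symm
  obtain ⟨u', w, rfl, -, hw⟩ := List.map_eq_append_iff.1 huv
  have := List.map_injective_iff.2 hf hw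
  subst this
  exact ⟨u', v, rfl⟩

/-- the statement S0432 from the combinatorial theorem about `alg` -/
theorem main_of (h : ∀ (S : List (List Bits)) (X : List Bits), (∀ s ∈ S, s <:+: X) →
      (alg S).length ≤ 2 * X.length) :
    ∃ f : List Bool → List Bool, Crest.Complexity.PolyTime f ∧
      ∀ S : List (List ℕ), ∃ T : List ℕ,
        f (Crest.Enc.natCode S.length ++ (S.map Crest.Enc.listCode).flatten)
          = Crest.Enc.listCode T ∧
        (∀ s ∈ S, s <:+: T) ∧
        ∀ T' : List ℕ, (∀ s ∈ S, s <:+: T') → T.length ≤ 2 * T'.length := by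
  obtain ⟨g1, hg1, e1⟩ := parse_input
  obtain ⟨g2, hg2, e2⟩ := PF_alg (X := List (List Bits)) (α := Bits) PF.id
  obtain ⟨g3, hg3, e3⟩ := print_output
  refine ⟨_, polyTime_of_PT (PT_comp hg1 (PT_comp hg2 hg3)), fun S => ?_⟩
  set S' : List (List Bits) := S.map (fun s => s.map bitsOf) with hS'
  have hsym : ∀ x ∈ alg S', ∃ n : ℕ, bitsOf n = x := by
    intro x hx
    obtain ⟨s, hs, hxs⟩ := mem_alg hx
    obtain ⟨s0, -, rfl⟩ := List.mem_map.1 hs
    obtain ⟨n, -, rfl⟩ := List.mem_map.1 hxs
    exact ⟨n, rfl⟩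
  obtain ⟨T, hT⟩ : ∃ T : List ℕ, T.map bitsOf = alg S' := by
    generalize alg S' = A at hsym
    induction A with
    | nil => exact ⟨[], rfl⟩
    | cons a l ih =>
      obtain ⟨T, hT⟩ := ih (fun x hx => hsym x (by simp [hx]))
      obtain ⟨n, hn⟩ := hsym a (by simp)
      exact ⟨n :: T, by rw [List.map_cons, hT, hn]⟩
  refine ⟨T, ?_, ?_, ?_⟩
  · rw [e1, e2, ← hS']
    change g3 (enc (alg S')) = _
    rw [← hT, e3]
  · intro s hs
    apply infix_of_map bitsOf_inj
    rw [hT]
    exact infix_alg S' (List.mem_map.2 ⟨s, hs, rfl⟩)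
  · intro T' hT'
    have h1 := h S' (T'.map bitsOf) (fun s hs => by
      obtain ⟨s0, hs0, rfl⟩ := List.mem_map.1 hs
      exact (hT' s0 hs0).map bitsOf)
    rw [← hT, List.length_map, List.length_map] at h1
    exact h1

end Crest.Agent.R287
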